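import Mathlib

/-!
# P038 (Seymour's second neighbourhood conjecture), partial: definitions
-/

set_option autoImplicit false

namespace Vale.Agent.P038

open scoped Classical

/-- oriented graph: no loops and no pair of opposite arcs -/
def Oriented {V : Type} (r : V → V → Prop) : Prop := ∀ a b, r a b → ¬ r b a

/-- `w` is at directed distance exactly two from `v` -/
def Second {V : Type} (r : V → V → Prop) (v w : V) : Prop :=
  w ≠ v ∧ ¬ r v w ∧ ∃ u, r v u ∧ r u w

/-- the second neighbourhood property -/
def Seymour {V : Type} (r : V → V → Prop) : Prop :=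
  ∃ v : V, Nat.card {u // r v u} ≤ Nat.card {w // Second r v w}

/-- the weighted second neighbourhood property -/
def WSeymour {V : Type} [Fintype V] (r : V → V → Prop) : Prop :=
  ∀ ω : V → ℝ, (∀ v, 0 < ω v) →
    ∃ v, ∑ u with r v u, ω u ≤ ∑ w with Second r v w, ω w

/-- quasi-transitive: `a → b → c` implies that `a` and `c` are adjacent (tournaments, transitive
orientations, ...) -/
def QuasiTransitive {V : Type} (r : V → V → Prop) : Prop :=
  ∀ a b c, r a b → r b c → r a c ∨ r c a

/-- every nonempty out-neighbourhood contains a vertex without out-neighbours in it -/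
def LocalSink {V : Type} (r : V → V → Prop) : Prop :=
  ∀ v u, r v u → ∃ x, r v x ∧ ∀ y, r v y → ¬ r x y

/-- substitution: every vertex `q` of the oriented graph `Q` is replaced by the oriented graph
`H q` -/
def Subst {Q : Type} {H : Q → Type} (rQ : Q → Q → Prop) (rH : ∀ q, H q → H q → Prop) :
    (Σ q, H q) → (Σ q, H q) → Prop :=
  fun x y => rQ x.1 y.1 ∨ ∃ h : x.1 = y.1, rH y.1 (h ▸ x.2) y.2

/-- QT -/
def S_QT : Prop := ∀ (V : Type) [Fintype V] [Nonempty V] (r : V → V → Prop), Oriented r →
  QuasiTransitive r → WSeymour r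

/-- SINK -/
def S_SINK : Prop := ∀ (V : Type) [Fintype V] [Nonempty V] (r : V → V → Prop), Oriented r →
  LocalSink r → WSeymour r

/-- SUB -/
def S_SUB : Prop := ∀ (Q : Type) [Fintype Q] (H : Q → Type) [∀ q, Fintype (H q)]
  [∀ q, Nonempty (H q)] (rQ : Q → Q → Prop) (rH : ∀ q, H q → H q → Prop), Oriented rQ →
  (∀ q, Oriented (rH q)) → WSeymour rQ →
  Oriented (Subst rQ rH) ∧
  ((∀ q, WSeymour (rH q)) → WSeymour (Subst rQ rH)) ∧
  ((∀ q, Seymour (rH q)) → Seymour (Subst rQ rH))

/-- the class generated by quasi-transitive oriented graphs and oriented graphs with local sinks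
under substitution -/
inductive Cls : (V : Type) → [Fintype V] → (V → V → Prop) → Prop
  | quasi (V : Type) [Fintype V] [Nonempty V] (r : V → V → Prop) : Oriented r →
      QuasiTransitive r → Cls V r
  | sink (V : Type) [Fintype V] [Nonempty V] (r : V → V → Prop) : Oriented r →
      LocalSink r → Cls V r
  | subst (Q : Type) [Fintype Q] (H : Q → Type) [∀ q, Fintype (H q)] (rQ : Q → Q → Prop)
      (rH : ∀ q, H q → H q → Prop) : Cls Q rQ → (∀ q, Cls (H q) (rH q)) →
      Cls (Σ q, H q) (Subst rQ rH)
  | iso (V W : Type) [Fintype V] [Fintype W] (e : V ≃ W) (r : W → W → Prop) :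
      Cls V (fun a b => r (e a) (e b)) → Cls W r

/-- FINAL -/
def S_FINAL : Prop := ∀ (V : Type) [Fintype V] (r : V → V → Prop), Cls V r →
  Nonempty V ∧ Oriented r ∧ WSeymour r ∧ Seymour r

end Vale.Agent.P038
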