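import Vale.Agent.P038.Defs

/-!
# P038, module QT: weighted median orders
-/

set_option autoImplicit false

namespace Vale.Agent.P038

open scoped Classical

namespace QtX

variable {V : Type}

/-- weight of the vertices of `l` with property `P` -/
noncomputable def S (ω : V → ℝ) (P : V → Prop) (l : List V) : ℝ :=
  (l.map (fun b => if P b then ω b else 0)).sum

/-- total weight of forward arcs -/
noncomputable def F (r : V → V → Prop) (ω : V → ℝ) : List V → ℝ
  | [] => 0
  | a :: l => ω a * S ω (fun b => r a b) l + F r ω l

/-- weight of arcs from `A` to `B` -/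
noncomputable def X (r : V → V → Prop) (ω : V → ℝ) (A B : List V) : ℝ :=
  (A.map (fun a => ω a * S ω (fun b => r a b) B)).sum

theorem S_append (ω : V → ℝ) (P : V → Prop) (A B : List V) :
    S ω P (A ++ B) = S ω P A + S ω P B := by
  simp [S]

theorem S_cons (ω : V → ℝ) (P : V → Prop) (a : V) (B : List V) :
    S ω P (a :: B) = (if P a then ω a else 0) + S ω P B := by
  simp [S]

theorem X_append_right (r : V → V → Prop) (ω : V → ℝ) (A B C : List V) :
    X r ω A (B ++ C) = X r ω A B + X r ω A C := by
  induction A with
  | nil => simp [X]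
  | cons a A ih =>
      simp only [X, List.map_cons, List.sum_cons] at ih ⊢
      rw [ih, S_append]
      ring

theorem F_append (r : V → V → Prop) (ω : V → ℝ) (A B : List V) :
    F r ω (A ++ B) = F r ω A + F r ω B + X r ω A B := by
  induction A with
  | nil => simp [F, X]
  | cons a A ih =>
      simp only [List.cons_append, F, X, List.map_cons, List.sum_cons] at ih ⊢
      rw [ih, S_append]
      ring

theorem X_single (r : V → V → Prop) (ω : V → ℝ) (B : List V) (x : V) :
    X r ω B [x] = ω x * S ω (fun b => r b x) B := by
  induction B with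
  | nil => simp [X, S]
  | cons b B ih =>
      simp only [X, List.map_cons, List.sum_cons] at ih ⊢
      rw [ih, S_cons]
      by_cases h : r b x
      · simp [S, h]; ring
      · simp [S, h]

/-- the exchange inequality -/
theorem exch (r : V → V → Prop) (ω : V → ℝ) {A B C : List V} {x : V} (hx : 0 < ω x)
    (h : F r ω (A ++ (x :: (B ++ C))) ≤ F r ω (A ++ (B ++ (x :: C)))) :
    S ω (fun b => r x b) B ≤ S ω (fun b => r b x) B := by
  have e1 : F r ω (A ++ (x :: (B ++ C))) =
      F r ω A + (ω x * (S ω (fun b => r x b) B + S ω (fun b => r x b) C) +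
        (F r ω B + F r ω C + X r ω B C)) +
      (X r ω A [x] + (X r ω A B + X r ω A C)) := by
    rw [F_append, F, F_append, S_append, show x :: (B ++ C) = [x] ++ (B ++ C) from rfl,
      X_append_right, X_append_right]
  have e2 : F r ω (A ++ (B ++ (x :: C))) =
      F r ω A + (F r ω B + (ω x * S ω (fun b => r x b) C + F r ω C) +
        (X r ω B [x] + X r ω B C)) + (X r ω A B + (X r ω A [x] + X r ω A C)) := by
    rw [F_append, F_append, F, X_append_right, show x :: C = [x] ++ C from rfl,
      X_append_right, X_append_right]
  rw [e1, e2, X_single r ω B x] at h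
  have h2 : ω x * S ω (fun b => r x b) B ≤ ω x * S ω (fun b => r b x) B := by linarith
  exact le_of_mul_le_mul_left h2 hx

theorem S_mono {ω : V → ℝ} (hω : ∀ v, 0 < ω v) {P Q : V → Prop} {l : List V}
    (h : ∀ v ∈ l, P v → Q v) : S ω P l ≤ S ω Q l := by
  induction l with
  | nil => simp [S]
  | cons a l ih =>
      rw [S_cons, S_cons]
      have h1 := ih (fun v hv => h v (List.mem_cons_of_mem _ hv))
      have h2 := h a (by simp)
      by_cases hp : P a
      · simp only [hp, h2 hp, if_true]; linarith
      · by_cases hq : Q a
        · simp only [hp, hq, if_true, if_false]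
          have := hω a
          linarith
        · simp only [hp, hq, if_false]; linarith

theorem S_nonneg {ω : V → ℝ} (hω : ∀ v, 0 < ω v) (P : V → Prop) (l : List V) : 0 ≤ S ω P l := by
  induction l with
  | nil => simp [S]
  | cons a l ih =>
      rw [S_cons]
      have := hω a
      by_cases hp : P a
      · simp only [hp, if_true]; linarith
      · simp only [hp, if_false]; linarith

/-- the main induction -/
theorem main {r : V → V → Prop} (ho : Oriented r) (hq : QuasiTransitive r) {ω : V → ℝ}
    (hω : ∀ v, 0 < ω v) (x : V) (n : ℕ) : ∀ T : List V, T.length ≤ n → x ∉ T →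
    (∀ A B, T = A ++ B → S ω (fun b => r x b) B ≤ S ω (fun b => r b x) B) →
    (∀ A B y C, T = A ++ (B ++ (y :: C)) → S ω (fun b => r y b) B ≤ S ω (fun b => r b y) B) →
    S ω (fun b => r x b) T ≤ S ω (Second r x) T := by
  induction n with
  | zero =>
      intro T hT _ _ _
      have : T = [] := List.length_eq_zero_iff.1 (by omega)
      subst this
      simp [S]
  | succ n ih =>
      intro T hT hxT h1 h2
      -- `y` is bad after the prefix `A`
      let Bad : List V → V → Prop := fun A y => r y x ∧ ∀ z ∈ A, r x z → ¬ r z y
      have good : ∀ A y, y ≠ x → r y x → ¬ Bad A y → Second r x y := by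
        intro A y hy hyx hb
        have : ∃ z ∈ A, r x z ∧ r z y := by
          by_contra hc
          push Not at hc
          exact hb ⟨hyx, hc⟩
        obtain ⟨z, -, hz1, hz2⟩ := this
        exact ⟨hy, ho _ _ hyx, z, hz1, hz2⟩
      by_cases hbad : ∃ k, ∃ A y C, A.length = k ∧ T = A ++ y :: C ∧ Bad A y
      · obtain ⟨A, y, C, hk, hTe, hb⟩ := Nat.find_spec hbad
        have hmin := fun m hm => Nat.find_min hbad (m := m) hm
        have hA : ∀ A' y' C', A = A' ++ y' :: C' → ¬ Bad A' y' := by
          intro A' y' C' e hb'
          refine hmin A'.length ?_ ⟨A', y', C' ++ y :: C, rfl, ?_, hb'⟩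
          · rw [← hk, e]; simp
          · rw [hTe, e]; simp
        have s1 : S ω (fun b => r x b) A ≤ S ω (fun b => r y b) A := by
          apply S_mono hω
          intro z hz hxz
          rcases hq y x z hb.1 hxz with h | h
          · exact h
          · exact absurd h (hb.2 z hz hxz)
        have s2 : S ω (fun b => r y b) A ≤ S ω (fun b => r b y) A := by
          apply h2 [] A y C
          rw [hTe]; rfl
        have s3 : S ω (fun b => r b y) A ≤ S ω (Second r x) A := by
          apply S_mono hω
          intro z hz hzy
          have hzx : r z x := by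
            rcases hq z y x hzy hb.1 with h | h
            · exact h
            · exact absurd hzy (hb.2 z hz h)
          obtain ⟨A', C', e⟩ := List.append_of_mem hz
          refine good A' z ?_ hzx (hA A' z C' e)
          rintro rfl
          exact hxT (by rw [hTe]; simp [hz])
        have s4 := ih C (by
            have : T.length = A.length + (C.length + 1) := by rw [hTe]; simp
            omega)
          (fun h => hxT (by rw [hTe]; simp [h]))
          (fun A' B' e => h1 (A ++ y :: A') B' (by rw [hTe, e]; simp))
          (fun A' B' y' C' e => h2 (A ++ y :: A') B' y' C' (by rw [hTe, e]; simp))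
        have hny : ¬ r x y := ho _ _ hb.1
        rw [hTe, S_append, S_append, S_cons, S_cons]
        simp only [hny, if_false]
        have hpos : 0 ≤ (if Second r x y then ω y else 0) := by
          have := hω y
          split_ifs <;> linarith
        linarith
      · have hall : ∀ y ∈ T, r y x → Second r x y := by
          intro y hy hyx
          obtain ⟨A, C, e⟩ := List.append_of_mem hy
          refine good A y (fun h => hxT (h ▸ hy)) hyx (fun hb => hbad ⟨_, A, y, C, rfl, e, hb⟩)
        calc S ω (fun b => r x b) T ≤ S ω (fun b => r b x) T := h1 [] T rfl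
          _ ≤ _ := S_mono hω hall

end QtX

open QtX

theorem qt : S_QT := by
  intro V _ _ r ho hq ω hω
  set L0 : List V := (Finset.univ : Finset V).toList with hL0
  obtain ⟨L, hL, hmax⟩ := Finset.exists_max_image L0.permutations.toFinset (F r ω)
    ⟨L0, by simp⟩
  have hperm : L.Perm L0 := List.mem_permutations.1 (List.mem_toFinset.1 hL)
  have hmax' : ∀ L', L'.Perm L → F r ω L' ≤ F r ω L := fun L' h =>
    hmax L' (List.mem_toFinset.2 (List.mem_permutations.2 (h.trans hperm)))
  have hnd : L.Nodup := hperm.nodup_iff.2 (Finset.nodup_toList _)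
  have hne : L ≠ [] := by
    intro h
    rw [h] at hperm
    have h2 : L0 = [] := hperm.nil_eq.symm
    have h3 : (Classical.arbitrary V) ∈ L0 := by simp [hL0]
    rw [h2] at h3
    simp at h3
  obtain ⟨T, x, hTx⟩ : ∃ T x, L = T ++ [x] :=
    ⟨L.dropLast, L.getLast hne, (List.dropLast_append_getLast hne).symm⟩
  have hxT : x ∉ T := by
    rw [hTx] at hnd
    intro h
    exact (List.nodup_append.1 hnd).2.2 x h x (by simp) rfl
  have h1 : ∀ A B, T = A ++ B → S ω (fun b => r x b) B ≤ S ω (fun b => r b x) B := by
    intro A B e
    apply exch r ω (A := A) (B := B) (C := []) (hω x)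
    have e1 : L = A ++ (B ++ [x]) := by rw [hTx, e]; simp
    rw [← e1]
    apply hmax'
    rw [e1]
    simp only [List.append_nil]
    exact List.Perm.append_left A (List.perm_append_singleton x B).symm
  have h2 : ∀ A B y C, T = A ++ (B ++ (y :: C)) →
      S ω (fun b => r y b) B ≤ S ω (fun b => r b y) B := by
    intro A B y C e
    apply exch r ω (A := A) (B := B) (C := C ++ [x]) (hω y)
    have e1 : L = A ++ (B ++ (y :: (C ++ [x]))) := by rw [hTx, e]; simp
    rw [← e1]
    apply hmax'
    rw [e1]
    exact List.Perm.append_left A List.perm_middle.symm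
  have hm := main ho hq hω x T.length T le_rfl hxT h1 h2
  have hsum : ∀ P : V → Prop, S ω P L = ∑ u with P u, ω u := by
    intro P
    rw [Finset.sum_filter, ← Finset.sum_map_toList]
    exact (hperm.map _).sum_eq
  refine ⟨x, ?_⟩
  rw [← hsum (fun u => r x u), ← hsum (fun w => Second r x w), hTx, S_append, S_append, S_cons,
    S_cons]
  have hxx : ¬ r x x := fun h => ho _ _ h h
  have hxx2 : ¬ Second r x x := fun h => h.1 rfl
  have e1 : S ω (fun u => r x u) ([] : List V) = 0 := by simp [S]
  have e2 : S ω (fun w => Second r x w) ([] : List V) = 0 := by simp [S]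
  simp only [hxx, hxx2, if_false, e1, e2, add_zero]
  exact hm

end Vale.Agent.P038
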