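import Vale.Agent.P038.Defs

set_option autoImplicit false

namespace Vale.Agent.P038

open scoped Classical

theorem sink : S_SINK := by
  intro V _ _ r ho hs ω hω
  obtain ⟨v, -, hv⟩ := Finset.exists_min_image (Finset.univ : Finset V)
    (fun v => ∑ u with r v u, ω u) Finset.univ_nonempty
  refine ⟨v, ?_⟩
  by_cases h : ∃ u, r v u
  · obtain ⟨u, hu⟩ := h
    obtain ⟨x, hx, hx2⟩ := hs v u hu
    refine (hv x (Finset.mem_univ _)).trans ?_
    apply Finset.sum_le_sum_of_subset_of_nonneg
    · intro y hy
      simp only [Finset.mem_filter, Finset.mem_univ, true_and] at hy ⊢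
      refine ⟨?_, fun hvy => hx2 y hvy hy, x, hx, hy⟩
      rintro rfl
      exact ho _ _ hx hy
    · intro i _ _
      exact (hω i).le
  · have : (Finset.univ.filter fun u => r v u) = ∅ := by
      rw [Finset.filter_eq_empty_iff]
      intro u _ hu
      exact h ⟨u, hu⟩
    rw [this, Finset.sum_empty]
    exact Finset.sum_nonneg fun i _ => (hω i).le

end Vale.Agent.P038
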