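import Vale.Agent.P038.Defs

set_option autoImplicit false

namespace Vale.Agent.P038

open scoped Classical

namespace SubX

variable {Q : Type} {H : Q → Type} {rQ : Q → Q → Prop} {rH : ∀ q, H q → H q → Prop}

theorem irr {V : Type} {r : V → V → Prop} (h : Oriented r) (a : V) : ¬ r a a :=
  fun h1 => h _ _ h1 h1

theorem subst_same (hQ : Oriented rQ) (q : Q) (a b : H q) :
    Subst rQ rH ⟨q, a⟩ ⟨q, b⟩ ↔ rH q a b := by
  constructor
  · rintro (h | ⟨h, h2⟩)
    · exact absurd h (irr hQ q)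
    · exact h2
  · intro h
    exact Or.inr ⟨rfl, h⟩

theorem subst_ne {q p : Q} (hne : q ≠ p) (a : H q) (b : H p) :
    Subst rQ rH ⟨q, a⟩ ⟨p, b⟩ ↔ rQ q p := by
  constructor
  · rintro (h | ⟨h, h2⟩)
    · exact h
    · exact absurd h hne
  · intro h
    exact Or.inl h

theorem orient (hQ : Oriented rQ) (hH : ∀ q, Oriented (rH q)) : Oriented (Subst rQ rH) := by
  rintro ⟨q, a⟩ ⟨p, b⟩ h1 h2
  by_cases hqp : q = p
  · subst hqp
    rw [subst_same hQ] at h1 h2
    exact hH q _ _ h1 h2
  · rw [subst_ne hqp] at h1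
    rw [subst_ne (Ne.symm hqp)] at h2
    exact hQ _ _ h1 h2

theorem core [Fintype Q] [∀ q, Fintype (H q)] [∀ q, Nonempty (H q)] (hQ : Oriented rQ)
    (ω : (Σ q, H q) → ℝ) (hω : ∀ x, 0 ≤ ω x) (q : Q) (a : H q)
    (h1 : ∑ p with rQ q p, ∑ b : H p, ω ⟨p, b⟩ ≤ ∑ p with Second rQ q p, ∑ b : H p, ω ⟨p, b⟩)
    (h2 : ∑ b with rH q a b, ω ⟨q, b⟩ ≤ ∑ b with Second (rH q) a b, ω ⟨q, b⟩) :
    ∑ y with Subst rQ rH ⟨q, a⟩ y, ω y ≤ ∑ y with Second (Subst rQ rH) ⟨q, a⟩ y, ω y := by
  rw [Finset.sum_filter, Finset.sum_filter] at h1 h2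
  rw [Finset.sum_filter, Finset.sum_filter, Fintype.sum_sigma, Fintype.sum_sigma]
  set N := ∑ b : H q, (if rH q a b then ω ⟨q, b⟩ else 0) with hN
  set N2 := ∑ b : H q, (if Second (rH q) a b then ω ⟨q, b⟩ else 0) with hN2
  have e1 : ∀ p, ∑ b : H p, (if Subst rQ rH ⟨q, a⟩ ⟨p, b⟩ then ω ⟨p, b⟩ else 0) ≤
      (if rQ q p then ∑ b : H p, ω ⟨p, b⟩ else 0) + (if q = p then N else 0) := by
    intro p
    by_cases hqp : q = p
    · subst hqp
      simp only [subst_same hQ, irr hQ q, if_false, if_true, zero_add]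
      exact le_rfl
    · simp only [subst_ne hqp, hqp, if_false, add_zero]
      by_cases h : rQ q p
      · simp [h]
      · simp [h]
  have e2 : ∀ p, (if Second rQ q p then ∑ b : H p, ω ⟨p, b⟩ else 0) + (if q = p then N2 else 0) ≤
      ∑ b : H p, (if Second (Subst rQ rH) ⟨q, a⟩ ⟨p, b⟩ then ω ⟨p, b⟩ else 0) := by
    intro p
    by_cases hqp : q = p
    · subst hqp
      have hns : ¬ Second rQ q q := fun h => h.1 rfl
      simp only [hns, if_false, if_true, zero_add]
      rw [hN2]
      apply Finset.sum_le_sum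
      intro b _
      by_cases h : Second (rH q) a b
      · have h' : Second (Subst rQ rH) ⟨q, a⟩ ⟨q, b⟩ := by
          obtain ⟨g1, g2, c, g3, g4⟩ := h
          refine ⟨fun e => g1 ?_, ?_, ⟨q, c⟩, ?_, ?_⟩
          · simpa using e
          · rw [subst_same hQ]; exact g2
          · rw [subst_same hQ]; exact g3
          · rw [subst_same hQ]; exact g4
        simp [h, h']
      · simp only [h, if_false]
        split_ifs
        · exact hω _
        · exact le_rfl
    · simp only [hqp, if_false, add_zero]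
      by_cases h : Second rQ q p
      · simp only [h, if_true]
        apply Finset.sum_le_sum
        intro b _
        have h' : Second (Subst rQ rH) ⟨q, a⟩ ⟨p, b⟩ := by
          obtain ⟨g1, g2, c, g3, g4⟩ := h
          have hqc : q ≠ c := fun e => irr hQ c (e ▸ g3)
          have hcp : c ≠ p := fun e => irr hQ c (e ▸ g4)
          refine ⟨fun e => hqp ?_, ?_, ⟨c, Classical.arbitrary _⟩, ?_, ?_⟩
          · exact (congrArg Sigma.fst e).symm
          · rw [subst_ne hqp]; exact g2
          · rw [subst_ne hqc]; exact g3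
          · rw [subst_ne hcp]; exact g4
        simp [h']
      · simp only [h, if_false]
        apply Finset.sum_nonneg
        intro b _
        split_ifs
        · exact hω _
        · exact le_rfl
  calc ∑ p, ∑ b : H p, (if Subst rQ rH ⟨q, a⟩ ⟨p, b⟩ then ω ⟨p, b⟩ else 0)
      ≤ ∑ p, ((if rQ q p then ∑ b : H p, ω ⟨p, b⟩ else 0) + (if q = p then N else 0)) :=
        Finset.sum_le_sum fun p _ => e1 p
    _ = (∑ p, (if rQ q p then ∑ b : H p, ω ⟨p, b⟩ else 0)) + N := by
        rw [Finset.sum_add_distrib]; simp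
    _ ≤ (∑ p, (if Second rQ q p then ∑ b : H p, ω ⟨p, b⟩ else 0)) + N2 := add_le_add h1 h2
    _ = ∑ p, ((if Second rQ q p then ∑ b : H p, ω ⟨p, b⟩ else 0) + (if q = p then N2 else 0)) := by
        rw [Finset.sum_add_distrib]; simp
    _ ≤ _ := Finset.sum_le_sum fun p _ => e2 p

theorem card_sum {V : Type} [Fintype V] (P : V → Prop) :
    (Nat.card {u // P u} : ℝ) = ∑ u with P u, (1 : ℝ) := by
  rw [Nat.card_eq_fintype_card, Fintype.card_subtype]
  simp

theorem seymour_iff {V : Type} [Fintype V] (r : V → V → Prop) :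
    Seymour r ↔ ∃ v, ∑ u with r v u, (1 : ℝ) ≤ ∑ w with Second r v w, (1 : ℝ) := by
  unfold Seymour
  refine exists_congr fun v => ?_
  rw [← card_sum, ← card_sum, Nat.cast_le]

end SubX

open SubX

theorem sub : S_SUB := by
  intro Q _ H _ _ rQ rH hQ hH hW
  refine ⟨orient hQ hH, fun hWH ω hω => ?_, fun hSH => ?_⟩
  · obtain ⟨q, hq⟩ := hW (fun q => ∑ b : H q, ω ⟨q, b⟩)
      (fun q => Finset.sum_pos (fun b _ => hω _) Finset.univ_nonempty)
    obtain ⟨a, ha⟩ := hWH q (fun b => ω ⟨q, b⟩) (fun b => hω _)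
    exact ⟨⟨q, a⟩, core hQ ω (fun x => (hω x).le) q a hq ha⟩
  · obtain ⟨q, hq⟩ := hW (fun q => ∑ _b : H q, (1 : ℝ))
      (fun q => Finset.sum_pos (fun b _ => one_pos) Finset.univ_nonempty)
    obtain ⟨a, ha⟩ := (seymour_iff (rH q)).1 (hSH q)
    rw [seymour_iff]
    exact ⟨⟨q, a⟩, core hQ (fun _ => 1) (fun _ => zero_le_one) q a hq ha⟩

theorem final (hQT : S_QT) (hSINK : S_SINK) : S_FINAL := by
  have key : ∀ (V : Type) [Fintype V] (r : V → V → Prop), Cls V r →
      Nonempty V ∧ Oriented r ∧ WSeymour r := by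
    intro V _ r h
    induction h with
    | quasi V r ho hq => exact ⟨inferInstance, ho, hQT V r ho hq⟩
    | sink V r ho hs => exact ⟨inferInstance, ho, hSINK V r ho hs⟩
    | subst Q H rQ rH hQ hH ih1 ih2 =>
        obtain ⟨⟨q⟩, ho, hw⟩ := ih1
        have hne : ∀ q, Nonempty (H q) := fun q => (ih2 q).1
        obtain ⟨a⟩ := hne q
        obtain ⟨s1, s2, -⟩ := sub Q H rQ rH ho (fun q => (ih2 q).2.1) hw
        exact ⟨⟨⟨q, a⟩⟩, s1, s2 (fun q => (ih2 q).2.2)⟩
    | iso V W e r hV ih =>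
        obtain ⟨⟨v⟩, ho, hw⟩ := ih
        refine ⟨⟨e v⟩, ?_, ?_⟩
        · intro a b h1 h2
          apply ho (e.symm a) (e.symm b)
          · simpa using h1
          · simpa using h2
        · intro ω hω
          obtain ⟨x, hx⟩ := hw (fun v => ω (e v)) (fun v => hω _)
          refine ⟨e x, ?_⟩
          rw [Finset.sum_filter, Finset.sum_filter] at hx ⊢
          rw [← e.sum_comp, ← e.sum_comp (fun w => if Second r (e x) w then ω w else 0)]
          refine hx.trans (le_of_eq ?_)
          refine Finset.sum_congr rfl fun u _ => ?_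
          have : Second (fun a b => r (e a) (e b)) x u ↔ Second r (e x) (e u) := by
            unfold Second
            constructor
            · rintro ⟨g1, g2, c, g3, g4⟩
              exact ⟨fun h => g1 (e.injective h), g2, e c, g3, g4⟩
            · rintro ⟨g1, g2, c, g3, g4⟩
              exact ⟨fun h => g1 (h ▸ rfl), g2, e.symm c, by simpa using g3, by simpa using g4⟩
          by_cases h : Second r (e x) (e u)
          · simp only [this.2 h, h, if_true]
          · simp only [mt this.1 h, h, if_false]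
  intro V _ r h
  obtain ⟨h1, h2, h3⟩ := key V r h
  refine ⟨h1, h2, h3, ?_⟩
  rw [seymour_iff]
  exact h3 (fun _ => 1) (fun _ => one_pos)

end Vale.Agent.P038
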